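import Vale.Agent.Lib.P121.Main

open MeasureTheory
open scoped ENNReal

namespace Vale.Agent.Results.P121.A_EveryMongePlanBeaten

open Vale.Agent.Lib.P121

/-- Disproof of Q1, stated without any auxiliary definition.  There is a Borel probability measure
`μ` on `R^3`, absolutely continuous with respect to Lebesgue measure, such that
(a) some coupling `π` with all three marginals equal to `μ` has finite Coulomb cost, and
(b) for every pair of Borel maps `T₂, T₃` pushing `μ` to `μ` there is a coupling `π` with all three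
marginals `μ` whose Coulomb cost is strictly smaller than the cost of the Monge plan
`(Id, T₂, T₃)_# μ`.  Hence no Monge plan attains the Kantorovich value. -/
theorem result :
    ∃ μ : Measure (EuclideanSpace ℝ (Fin 3)),
      IsProbabilityMeasure μ ∧ μ ≪ volume ∧
      (∃ π : Measure (EuclideanSpace ℝ (Fin 3) × EuclideanSpace ℝ (Fin 3) ×
            EuclideanSpace ℝ (Fin 3)),
          π.map (fun p => p.1) = μ ∧ π.map (fun p => p.2.1) = μ ∧ π.map (fun p => p.2.2) = μ ∧
          ∫⁻ p, ((edist p.1 p.2.1)⁻¹ + (edist p.1 p.2.2)⁻¹ + (edist p.2.1 p.2.2)⁻¹) ∂π < ⊤) ∧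
      ∀ T₂ T₃ : EuclideanSpace ℝ (Fin 3) → EuclideanSpace ℝ (Fin 3),
        Measurable T₂ → Measurable T₃ → μ.map T₂ = μ → μ.map T₃ = μ →
        ∃ π : Measure (EuclideanSpace ℝ (Fin 3) × EuclideanSpace ℝ (Fin 3) ×
            EuclideanSpace ℝ (Fin 3)),
          π.map (fun p => p.1) = μ ∧ π.map (fun p => p.2.1) = μ ∧ π.map (fun p => p.2.2) = μ ∧
          ∫⁻ p, ((edist p.1 p.2.1)⁻¹ + (edist p.1 p.2.2)⁻¹ + (edist p.2.1 p.2.2)⁻¹) ∂π <
            ∫⁻ x, ((edist x (T₂ x))⁻¹ + (edist x (T₃ x))⁻¹ + (edist (T₂ x) (T₃ x))⁻¹) ∂μ := by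
  obtain ⟨hprob, hac, hfin, hno⟩ := main_counterexample
  refine ⟨muCE, hprob, hac, ?_, ?_⟩
  · unfold kantVal at hfin
    obtain ⟨π, hlt0⟩ := iInf_lt_iff.mp hfin
    obtain ⟨hπ, hlt⟩ := iInf_lt_iff.mp hlt0
    exact ⟨π, hπ.1, hπ.2.1, hπ.2.2, hlt⟩
  · intro T₂ T₃ h2 h3 hm2 hm3
    have hmeas : Measurable (fun x : E3 => (x, T₂ x, T₃ x)) :=
      measurable_id.prodMk (h2.prodMk h3)
    have hmem : muCE.map (fun x : E3 => (x, T₂ x, T₃ x)) ∈ Couplings3 muCE := by
      refine ⟨?_, ?_, ?_⟩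
      · rw [Measure.map_map measurable_fst hmeas]
        exact Measure.map_id
      · have hq : Measurable (fun p : E3 × E3 × E3 => p.2.1) :=
          measurable_fst.comp measurable_snd
        rw [Measure.map_map hq hmeas]
        exact hm2
      · have hq : Measurable (fun p : E3 × E3 × E3 => p.2.2) :=
          measurable_snd.comp measurable_snd
        rw [Measure.map_map hq hmeas]
        exact hm3
    have hle : kantVal coulomb muCE ≤ ∫⁻ x, coulomb (x, T₂ x, T₃ x) ∂muCE := by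
      have h1 : kantVal coulomb muCE ≤
          ∫⁻ p, coulomb p ∂(muCE.map (fun x : E3 => (x, T₂ x, T₃ x))) :=
        iInf₂_le _ hmem
      rwa [lintegral_map measurable_coulomb hmeas] at h1
    have hne : ∫⁻ x, coulomb (x, T₂ x, T₃ x) ∂muCE ≠ kantVal coulomb muCE := by
      intro he
      exact hno ⟨T₂, T₃, h2, h3, hm2, hm3, he⟩
    have hlt : kantVal coulomb muCE < ∫⁻ x, coulomb (x, T₂ x, T₃ x) ∂muCE :=
      lt_of_le_of_ne hle (Ne.symm hne)
    unfold kantVal at hlt
    obtain ⟨π, hlt0⟩ := iInf_lt_iff.mp hlt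
    obtain ⟨hπ, hlt'⟩ := iInf_lt_iff.mp hlt0
    exact ⟨π, hπ.1, hπ.2.1, hπ.2.2, hlt'⟩

end Vale.Agent.Results.P121.A_EveryMongePlanBeaten
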