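import Vale.Agent.Lib.P121.Main

open MeasureTheory
open scoped ENNReal

namespace Vale.Agent.Results.P121.InlinedNoMonge

open Vale.Agent.Lib.P121

/-- Disproof of Q1, stated with Mathlib notions only.  There is a Borel probability measure `μ` on
`R^3`, absolutely continuous with respect to Lebesgue measure, whose Kantorovich value for the
three-marginal Coulomb cost (infimum over all probability measures on `(R^3)^3` with the three
marginals `μ`) is finite, and such that EVERY Monge plan `(Id, T₂, T₃)_# μ` has cost strictly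
larger than the Kantorovich value. -/
theorem result :
    ∃ μ : Measure (EuclideanSpace ℝ (Fin 3)),
      IsProbabilityMeasure μ ∧ μ ≪ volume ∧
      (⨅ π ∈ {π : Measure (EuclideanSpace ℝ (Fin 3) × EuclideanSpace ℝ (Fin 3) ×
            EuclideanSpace ℝ (Fin 3)) | IsProbabilityMeasure π ∧ π.map (fun p => p.1) = μ ∧
            π.map (fun p => p.2.1) = μ ∧ π.map (fun p => p.2.2) = μ},
          ∫⁻ p, ((edist p.1 p.2.1)⁻¹ + (edist p.1 p.2.2)⁻¹ + (edist p.2.1 p.2.2)⁻¹) ∂π) < ⊤ ∧
      ∀ T₂ T₃ : EuclideanSpace ℝ (Fin 3) → EuclideanSpace ℝ (Fin 3),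
        Measurable T₂ → Measurable T₃ → μ.map T₂ = μ → μ.map T₃ = μ →
        (⨅ π ∈ {π : Measure (EuclideanSpace ℝ (Fin 3) × EuclideanSpace ℝ (Fin 3) ×
            EuclideanSpace ℝ (Fin 3)) | IsProbabilityMeasure π ∧ π.map (fun p => p.1) = μ ∧
            π.map (fun p => p.2.1) = μ ∧ π.map (fun p => p.2.2) = μ},
          ∫⁻ p, ((edist p.1 p.2.1)⁻¹ + (edist p.1 p.2.2)⁻¹ + (edist p.2.1 p.2.2)⁻¹) ∂π)
          < ∫⁻ x, ((edist x (T₂ x))⁻¹ + (edist x (T₃ x))⁻¹ + (edist (T₂ x) (T₃ x))⁻¹) ∂μ := by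
  obtain ⟨hP, hac, hfin, hno⟩ := main_counterexample
  have hset : {π : Measure (EuclideanSpace ℝ (Fin 3) × EuclideanSpace ℝ (Fin 3) ×
            EuclideanSpace ℝ (Fin 3)) | IsProbabilityMeasure π ∧ π.map (fun p => p.1) = muCE ∧
            π.map (fun p => p.2.1) = muCE ∧ π.map (fun p => p.2.2) = muCE} = Couplings3 muCE := by
    ext π
    constructor
    · rintro ⟨_, h⟩
      exact h
    · intro h
      refine ⟨⟨?_⟩, h⟩
      have h1 : (π.map (fun p => p.1)) Set.univ = muCE Set.univ := by rw [h.1]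
      rw [Measure.map_apply measurable_fst MeasurableSet.univ, Set.preimage_univ] at h1
      rw [h1]
      exact measure_univ
  have hval : (⨅ π ∈ {π : Measure (EuclideanSpace ℝ (Fin 3) × EuclideanSpace ℝ (Fin 3) ×
            EuclideanSpace ℝ (Fin 3)) | IsProbabilityMeasure π ∧ π.map (fun p => p.1) = muCE ∧
            π.map (fun p => p.2.1) = muCE ∧ π.map (fun p => p.2.2) = muCE},
          ∫⁻ p, ((edist p.1 p.2.1)⁻¹ + (edist p.1 p.2.2)⁻¹ + (edist p.2.1 p.2.2)⁻¹) ∂π)
        = kantVal coulomb muCE := by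
    rw [hset]
    rfl
  refine ⟨muCE, hP, hac, ?_, ?_⟩
  · rw [hval]
    exact hfin
  · intro T₂ T₃ h2 h3 hm2 hm3
    rw [hval]
    have hmeas : Measurable (fun x : E3 => ((x, T₂ x, T₃ x) : E3 × E3 × E3)) :=
      measurable_id.prodMk (h2.prodMk h3)
    have hle : kantVal coulomb muCE ≤ ∫⁻ x, coulomb (x, T₂ x, T₃ x) ∂muCE := by
      have hmem : muCE.map (fun x : E3 => ((x, T₂ x, T₃ x) : E3 × E3 × E3)) ∈ Couplings3 muCE := by
        refine ⟨?_, ?_, ?_⟩
        · rw [Measure.map_map measurable_fst hmeas]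
          exact Measure.map_id
        · have hg : Measurable (fun p : E3 × E3 × E3 => p.2.1) := measurable_fst.comp measurable_snd
          rw [Measure.map_map hg hmeas]
          exact hm2
        · have hg : Measurable (fun p : E3 × E3 × E3 => p.2.2) := measurable_snd.comp measurable_snd
          rw [Measure.map_map hg hmeas]
          exact hm3
      calc kantVal coulomb muCE
          ≤ ∫⁻ p, coulomb p ∂(muCE.map (fun x : E3 => ((x, T₂ x, T₃ x) : E3 × E3 × E3))) :=
            iInf₂_le _ hmem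
        _ = ∫⁻ x, coulomb (x, T₂ x, T₃ x) ∂muCE := lintegral_map measurable_coulomb hmeas
    have hne : ∫⁻ x, coulomb (x, T₂ x, T₃ x) ∂muCE ≠ kantVal coulomb muCE := by
      intro he
      exact hno ⟨T₂, T₃, h2, h3, hm2, hm3, he⟩
    exact lt_of_le_of_ne hle (Ne.symm hne)

end Vale.Agent.Results.P121.InlinedNoMonge
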