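import Vale.Agent.Lib.P121.Main

open MeasureTheory
open scoped ENNReal

namespace Vale.Agent.Results.P121.NoOptimalMongePlan

open Vale.Agent.Lib.P121

/-- Disproof of Q1: there is a Borel probability measure `μ` on `R^3`, absolutely continuous with
respect to Lebesgue measure and with finite Kantorovich value for the three-marginal Coulomb cost,
which admits no optimal Monge plan: no Borel maps `T₂, T₃` pushing `μ` to `μ` have
`∫ c(x, T₂ x, T₃ x) dμ(x)` equal to the Kantorovich value. -/
theorem result :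
    ∃ μ : Measure (EuclideanSpace ℝ (Fin 3)),
      IsProbabilityMeasure μ ∧ μ ≪ volume ∧ kantVal coulomb μ < ⊤ ∧
      ¬ ∃ T₂ T₃ : EuclideanSpace ℝ (Fin 3) → EuclideanSpace ℝ (Fin 3),
        Measurable T₂ ∧ Measurable T₃ ∧ μ.map T₂ = μ ∧ μ.map T₃ = μ ∧
        ∫⁻ x, coulomb (x, T₂ x, T₃ x) ∂μ = kantVal coulomb μ :=
  ⟨muCE, main_counterexample⟩

end Vale.Agent.Results.P121.NoOptimalMongePlan
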